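import Vale.Agent.P331.Final

open MeasureTheory Vale.Agent.P331
open scoped ENNReal NNReal in
/-- One sample per element, almighty adversary: samples and values are mutually independent
(the law of `ω = ((S_e, V_e))_e` is the product of `D_e ⊗ D_e`). The rule draws a seed `s` uniformly
from the `N = Nat.log 2 r + 2` values of `Option (Fin (Nat.log 2 r + 1))`, where `r` is the rank, and
then runs the threshold rule `run`. The arrival order `π s ω` may be an arbitrary function of the
seed, the samples and the values. Then `E[OPT] ≤ 52 * ∑ s, E[value of the rule with seed s]`, that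
is, the rule is `1 / (52 N)`-competitive. -/
theorem Vale.Agent.Results.P331.LogRankAlmighty.result
    {E : Type} [Fintype E] [DecidableEq E] (M : Matroid E)
    (D : E → Measure ℝ≥0) [∀ e, IsProbabilityMeasure (D e)]
    (π : Option (Fin (Nat.log 2 (rankOf M) + 1)) → (E → ℝ≥0 × ℝ≥0) → List E)
    (hπ : ∀ s ω, (π s ω).Nodup ∧ ∀ e, e ∈ π s ω) :
    ∫⁻ ω, optOf M (fun e => (ω e).2) ∂(Measure.pi fun e => (D e).prod (D e)) ≤
      52 * ∑ s, ∫⁻ ω, valueOf (fun e => (ω e).2)
        (run M s (fun e => (ω e).1) (fun e => (ω e).2) (π s ω) ∅)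
        ∂(Measure.pi fun e => (D e).prod (D e)) :=
  final_bound D _ rfl π (fun s ω => (hπ s ω).2)
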